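import Vale.Agent.Lib.P063.Numerics

/-!
P063: the exponent `r / (r - 1)` in the Friedgut-Kalai conjecture for `r`-uniform hypergraph
properties cannot be improved.  For every `r ≥ 2` and `0 < ε < 1/2` there is `c > 0` such that for
all large `n` the property of containing a complete `r`-uniform hypergraph on `k` vertices
(for a suitable `k = k(n)`) has threshold width at least `c (log n) ^ (- r / (r - 1))`.
-/

namespace Vale.Agent.Results.P063.CliqueSharpness

open Vale.Agent.Lib.P063

theorem result (r : ℕ) (hr : 2 ≤ r) (ε : ℝ) (hε0 : 0 < ε) (hε1 : ε < 1 / 2) :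
    ∃ c : ℝ, 0 < c ∧ ∀ᶠ n : ℕ in Filter.atTop, ∃ k : ℕ,
      IsProperty n r (cliqueProp n r k) ∧ IsIncreasing n r (cliqueProp n r k) ∧
      IsNontrivial n r (cliqueProp n r k) ∧
      c / (Real.log n) ^ ((r : ℝ) / (r - 1)) ≤ width n r ε (cliqueProp n r k) := by
  obtain ⟨A, hA, hev⟩ := numerics r hr
  have h1e : 0 < 1 - ε := by linarith
  have h2e : 0 < 1 - 2 * ε := by linarith
  refine ⟨(1 - 2 * ε) / (2 * (1 - ε) * A), by positivity, ?_⟩
  filter_upwards [hev, Filter.eventually_ge_atTop 2] with n hn hn2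
  obtain ⟨k, hrk, hkn, hnum, hup⟩ := hn
  refine ⟨k, clique_isProperty n r k, clique_isIncreasing n r k,
    clique_isNontrivial n r k hrk hkn, ?_⟩
  refine le_trans ?_ (clique_width n r k hrk hkn hnum ε hε0 hε1)
  have hc : (0 : ℝ) < (k.choose r : ℝ) := by exact_mod_cast Nat.choose_pos hrk
  have hlog : 0 < Real.log n := by
    apply Real.log_pos
    exact_mod_cast (by omega : 1 < n)
  have hL : 0 < (Real.log n) ^ ((r : ℝ) / (r - 1)) := Real.rpow_pos_of_pos hlog _
  rw [div_div]
  apply div_le_div_of_nonneg_left h2e.le (by positivity)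
  calc 2 * (1 - ε) * (k.choose r : ℝ) ≤ 2 * (1 - ε) * (A * (Real.log n) ^ ((r : ℝ) / (r - 1))) := by
        apply mul_le_mul_of_nonneg_left hup (by positivity)
    _ = 2 * (1 - ε) * A * (Real.log n) ^ ((r : ℝ) / (r - 1)) := by ring

end Vale.Agent.Results.P063.CliqueSharpness
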