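import Vale.Agent.Results.P063.CertificateWidth
import Vale.Agent.Results.P063.CliqueSharpness

/-!
P063: the two lower bounds on threshold widths in one statement.
-/

namespace Vale.Agent.Results.P063.AllResults

open Vale.Agent.Lib.P063

/-- (1) A nontrivial increasing `r`-uniform hypergraph property all of whose members contain a member
with at most `k` edges has width at least `(1 - 2 ε) / ((1 - ε) k)` times `p_{1-ε}`.
(2) For every `r ≥ 2` the clique properties have width at least `c (log n) ^ (- r / (r - 1))`. -/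
theorem result :
    (∀ (n r : ℕ) (P : Set (Finset (Finset (Fin n)))),
      IsProperty n r P → IsIncreasing n r P → IsNontrivial n r P →
      ∀ k : ℕ, 1 ≤ k → (∀ H ∈ P, ∃ S ∈ P, S ⊆ H ∧ S.card ≤ k) →
      ∀ ε : ℝ, 0 < ε → ε < 1 / 2 →
      (1 - 2 * ε) / ((1 - ε) * k) * pAt n r (1 - ε) P ≤ width n r ε P) ∧
    (∀ r : ℕ, 2 ≤ r → ∀ ε : ℝ, 0 < ε → ε < 1 / 2 →
      ∃ c : ℝ, 0 < c ∧ ∀ᶠ n : ℕ in Filter.atTop, ∃ k : ℕ,
        IsProperty n r (cliqueProp n r k) ∧ IsIncreasing n r (cliqueProp n r k) ∧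
        IsNontrivial n r (cliqueProp n r k) ∧
        c / (Real.log n) ^ ((r : ℝ) / (r - 1)) ≤ width n r ε (cliqueProp n r k)) :=
  ⟨fun n r P hP hinc hnt k hk hcert ε hε0 hε1 =>
      Vale.Agent.Results.P063.CertificateWidth.result n r P hP hinc hnt k hk hcert ε hε0 hε1,
    fun r hr ε hε0 hε1 => Vale.Agent.Results.P063.CliqueSharpness.result r hr ε hε0 hε1⟩

end Vale.Agent.Results.P063.AllResults
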