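import Vale.Agent.Lib.P063.Clique

/-!
P063: a general lower bound for the threshold width.  If every hypergraph in the increasing
property `P` contains a hypergraph of `P` with at most `k` edges, then
`w_ε(P) ≥ (1 - 2 ε) / ((1 - ε) k) * p_{1-ε}(P)`.
-/

namespace Vale.Agent.Results.P063.CertificateWidth

open Vale.Agent.Lib.P063

theorem result (n r : ℕ) (P : Set (Finset (Finset (Fin n))))
    (hP : IsProperty n r P) (hinc : IsIncreasing n r P) (hnt : IsNontrivial n r P)
    (k : ℕ) (hk : 1 ≤ k) (hcert : ∀ H ∈ P, ∃ S ∈ P, S ⊆ H ∧ S.card ≤ k)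
    (ε : ℝ) (hε0 : 0 < ε) (hε1 : ε < 1 / 2) :
    (1 - 2 * ε) / ((1 - ε) * k) * pAt n r (1 - ε) P ≤ width n r ε P := by
  obtain ⟨⟨H, hH⟩, _⟩ := hnt
  have hfull : edgeSet n r ∈ P := hinc H hH _ (hP.uniform H hH) (le_refl _)
  have h := width_lower (edgeSet n r) P hfull hinc k hk hcert ε hε0 hε1
  unfold width
  rw [pAt_eq, pAt_eq]
  exact h

end Vale.Agent.Results.P063.CertificateWidth
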